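import Vale.Agent.P335.Final

namespace Vale.Agent.Results.P335.RapidMixing

open Vale.Agent.P335

theorem result : ∀ n : ℕ, 4 ≤ n → ∀ d : Fin n → ℕ, Nonempty (Realization n d) →
    ∃ tmix : ℕ, IsLeast {t : ℕ | ∀ G : Realization n d, tvDist n d t G ≤ 1 / 4} tmix ∧
      tmix ≤ n ^ 6 := by
  intro n hn d _
  have h : 12 * n.choose 4 * (n ^ 2 + 2) ∈
      {t : ℕ | ∀ G : Realization n d, tvDist n d t G ≤ 1 / 4} := fun G => mixed hn G
  exact ⟨_, ⟨Nat.sInf_mem ⟨_, h⟩, fun t ht => Nat.sInf_le ht⟩,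
    (Nat.sInf_le h).trans (time_le hn)⟩

end Vale.Agent.Results.P335.RapidMixing
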